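import Vale.Agent.H90.KTV.Defs

/-!
Three-row lemma, claim A, for the switch-chain (KTV) development of helper90:
a column swap inside three rows changes the sum of the three row-pair averages by at most
`2 L`, when `L` bounds the change of `f` under such swaps.
-/

set_option linter.unusedSectionVars false

namespace Vale.Agent.H27

open Vale.Agent.H90 Finset

section

variable {R C : Type*} [Fintype R] [DecidableEq R] [Fintype C] [DecidableEq C]

/-- Part of a column sum carried by the rows of `S`. -/
def inPart (S : Finset R) (G : R → C → Bool) (c : C) : ℕ :=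
  ∑ r, if r ∈ S ∧ G r c = true then 1 else 0

/-- Part of a column sum carried by the rows outside `S`. -/
def outPart (S : Finset R) (G : R → C → Bool) (c : C) : ℕ :=
  ∑ r, if r ∉ S ∧ G r c = true then 1 else 0

theorem colSum_eq_parts (S : Finset R) (G : R → C → Bool) (c : C) :
    colSum G c = inPart S G c + outPart S G c := by
  unfold colSum inPart outPart
  rw [Finset.card_filter, ← Finset.sum_add_distrib]
  refine Finset.sum_congr rfl fun r _ => ?_
  by_cases h1 : r ∈ S <;> by_cases h2 : G r c = true <;> simp [h1, h2]

theorem colSum_colSwap (S : Finset R) (x y : C) (G : R → C → Bool) (c : C) :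
    colSum (colSwap S x y G) c = inPart S G (Equiv.swap x y c) + outPart S G c := by
  unfold colSum inPart outPart colSwap
  rw [Finset.card_filter, ← Finset.sum_add_distrib]
  refine Finset.sum_congr rfl fun r _ => ?_
  by_cases h1 : r ∈ S
  · simp [h1]
  · simp [h1]

theorem rowSum_colSwap (S : Finset R) (x y : C) (G : R → C → Bool) (r : R) :
    rowSum (colSwap S x y G) r = rowSum G r := by
  unfold rowSum colSwap
  by_cases h : r ∈ S
  · simp only [h, if_true]
    refine Finset.card_nbij' (fun b => Equiv.swap x y b) (fun b => Equiv.swap x y b) ?_ ?_ ?_ ?_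
    · intro b hb
      simpa using hb
    · intro b hb
      simpa using hb
    · intro b _
      simp
    · intro b _
      simp
  · simp [h]

theorem colSwap_colSwap (S : Finset R) (x y : C) (G : R → C → Bool) :
    colSwap S x y (colSwap S x y G) = G := by
  funext a b
  unfold colSwap
  by_cases h : a ∈ S <;> simp [h]

theorem colSwap_row_eq (S : Finset R) (x y : C) (G : R → C → Bool) (r : R)
    (hr : r ∈ S → G r x = G r y) : colSwap S x y G r = G r := by
  funext c
  unfold colSwap
  split_ifs with hS
  · rcases eq_or_ne c x with rfl | hcx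
    · rw [Equiv.swap_apply_left]
      exact (hr hS).symm
    · rcases eq_or_ne c y with rfl | hcy
      · rw [Equiv.swap_apply_right]
        exact hr hS
      · rw [Equiv.swap_apply_of_ne_of_ne hcx hcy]
  · rfl

theorem outPart_congr (S : Finset R) (G H : R → C → Bool) (hout : ∀ r, r ∉ S → G r = H r)
    (c : C) : outPart S G c = outPart S H c := by
  unfold outPart
  refine Finset.sum_congr rfl fun r _ => ?_
  by_cases h : r ∈ S
  · simp [h]
  · simp [h, hout r h]

theorem inPart_congr (S : Finset R) (G H : R → C → Bool) (hout : ∀ r, r ∉ S → G r = H r)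
    (hcol : ∀ c, colSum G c = colSum H c) (c : C) : inPart S G c = inPart S H c := by
  have h1 := colSum_eq_parts S G c
  have h2 := colSum_eq_parts S H c
  have h3 := outPart_congr S G H hout c
  have h4 := hcol c
  omega

theorem inPart_swap_of_sameMarg (S : Finset R) (x y : C) (G : R → C → Bool)
    (h : SameMarg G (colSwap S x y G)) (c : C) :
    inPart S G (Equiv.swap x y c) = inPart S G c := by
  have h1 := h.2 c
  rw [colSum_colSwap, colSum_eq_parts S G c] at h1
  omega

theorem sameMarg_colSwap_of_inPart (S : Finset R) (x y : C) (H : R → C → Bool)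
    (hin : ∀ c, inPart S H (Equiv.swap x y c) = inPart S H c) :
    SameMarg H (colSwap S x y H) := by
  refine ⟨fun r => (rowSum_colSwap S x y H r).symm, fun c => ?_⟩
  rw [colSum_colSwap, colSum_eq_parts S H c, hin c]

theorem relP_refl (a b : R) (G : R → C → Bool) : RelP a b G G :=
  ⟨fun _ _ _ => rfl, fun _ => rfl, fun _ => rfl⟩

theorem relP_symm {a b : R} {G H : R → C → Bool} (h : RelP a b G H) : RelP a b H G :=
  ⟨fun k h1 h2 => (h.1 k h1 h2).symm, fun r => (h.2.1 r).symm, fun c => (h.2.2 c).symm⟩

theorem relP_trans {a b : R} {G H K : R → C → Bool} (h1 : RelP a b G H) (h2 : RelP a b H K) :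
    RelP a b G K :=
  ⟨fun k ha hb => (h1.1 k ha hb).trans (h2.1 k ha hb),
    fun r => (h1.2.1 r).trans (h2.2.1 r), fun c => (h1.2.2 c).trans (h2.2.2 c)⟩

/-- The row-pair average is constant on the classes of the row-pair relation. -/
theorem avgRel_congr_of_relP (a b : R) (f : (R → C → Bool) → ℝ) {G G' : R → C → Bool}
    (h : RelP a b G G') : avgRel (RelP a b) f G = avgRel (RelP a b) f G' := by
  unfold avgRel
  have : univ.filter (fun y => RelP a b G y) = univ.filter (fun y => RelP a b G' y) := by
    ext H
    simp only [mem_filter, mem_univ, true_and]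
    exact ⟨fun hh => relP_trans (relP_symm h) hh, fun hh => relP_trans h hh⟩
  rw [this]

theorem relP_colSwap (S : Finset R) (a b : R) (ha : a ∈ S) (hb : b ∈ S) (x y : C)
    {G H : R → C → Bool} (h : RelP a b G H) :
    RelP a b (colSwap S x y G) (colSwap S x y H) := by
  have hout : ∀ r, r ∉ S → G r = H r := fun r hr =>
    h.1 r (fun e => hr (e ▸ ha)) (fun e => hr (e ▸ hb))
  refine ⟨fun k hka hkb => ?_, fun r => ?_, fun c => ?_⟩
  · funext c
    unfold colSwap
    rw [h.1 k hka hkb]
  · rw [rowSum_colSwap, rowSum_colSwap]
    exact h.2.1 r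
  · rw [colSum_colSwap, colSum_colSwap, inPart_congr S G H hout h.2.2,
      outPart_congr S G H hout]

theorem sameMarg_colSwap_of_relP (S : Finset R) (a b : R) (ha : a ∈ S) (hb : b ∈ S) (x y : C)
    {G H : R → C → Bool} (h : RelP a b G H) (hG : SameMarg G (colSwap S x y G)) :
    SameMarg H (colSwap S x y H) := by
  have hout : ∀ r, r ∉ S → G r = H r := fun r hr =>
    h.1 r (fun e => hr (e ▸ ha)) (fun e => hr (e ▸ hb))
  apply sameMarg_colSwap_of_inPart
  intro c
  rw [← inPart_congr S G H hout h.2.2, ← inPart_congr S G H hout h.2.2]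
  exact inPart_swap_of_sameMarg S x y G hG c

/-- One row pair inside `S`: the average changes by at most `L` under a column swap in `S`. -/
theorem avgRel_colSwap_le (S : Finset R) (a b : R) (ha : a ∈ S) (hb : b ∈ S)
    (f : (R → C → Bool) → ℝ) (L : ℝ)
    (hL : ∀ A x y, SameMarg A (colSwap S x y A) → |f A - f (colSwap S x y A)| ≤ L)
    (G : R → C → Bool) (x y : C) (h : SameMarg G (colSwap S x y G)) :
    |avgRel (RelP a b) f G - avgRel (RelP a b) f (colSwap S x y G)| ≤ L := by
  unfold avgRel
  have hmem : ∀ H, H ∈ univ.filter (fun H => RelP a b G H) →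
      colSwap S x y H ∈ univ.filter (fun H => RelP a b (colSwap S x y G) H) := by
    intro H hH
    simp only [mem_filter, mem_univ, true_and] at hH ⊢
    exact relP_colSwap S a b ha hb x y hH
  have hmem' : ∀ H, H ∈ univ.filter (fun H => RelP a b (colSwap S x y G) H) →
      colSwap S x y H ∈ univ.filter (fun H => RelP a b G H) := by
    intro H hH
    simp only [mem_filter, mem_univ, true_and] at hH ⊢
    have := relP_colSwap S a b ha hb x y hH
    rwa [colSwap_colSwap] at this
  have hsum : ∑ H ∈ univ.filter (fun H => RelP a b (colSwap S x y G) H), f H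
      = ∑ H ∈ univ.filter (fun H => RelP a b G H), f (colSwap S x y H) := by
    symm
    exact Finset.sum_nbij' (fun H => colSwap S x y H) (fun H => colSwap S x y H) hmem hmem'
      (fun H _ => colSwap_colSwap S x y H) (fun H _ => colSwap_colSwap S x y H)
      (fun H _ => rfl)
  have hcard : (univ.filter (fun H => RelP a b (colSwap S x y G) H)).card
      = (univ.filter (fun H => RelP a b G H)).card := by
    symm
    exact Finset.card_nbij' (fun H => colSwap S x y H) (fun H => colSwap S x y H) hmem hmem'
      (fun H _ => colSwap_colSwap S x y H) (fun H _ => colSwap_colSwap S x y H)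
  have hpos : 0 < ((univ.filter (fun H => RelP a b G H)).card : ℝ) := by
    have hG : G ∈ univ.filter (fun H => RelP a b G H) := by
      simp only [mem_filter, mem_univ, true_and]
      exact relP_refl a b G
    exact_mod_cast Finset.card_pos.mpr ⟨G, hG⟩
  rw [hsum, hcard, ← sub_div, ← Finset.sum_sub_distrib, abs_div, abs_of_pos hpos,
    div_le_iff₀ hpos]
  calc |∑ H ∈ univ.filter (fun H => RelP a b G H), (f H - f (colSwap S x y H))|
      ≤ ∑ H ∈ univ.filter (fun H => RelP a b G H), |f H - f (colSwap S x y H)| :=
        Finset.abs_sum_le_sum_abs _ _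
    _ ≤ ∑ _H ∈ univ.filter (fun H => RelP a b G H), L := by
        refine Finset.sum_le_sum fun H hH => ?_
        simp only [mem_filter, mem_univ, true_and] at hH
        exact hL H x y (sameMarg_colSwap_of_relP S a b ha hb x y hH h)
    _ = L * ((univ.filter (fun H => RelP a b G H)).card : ℝ) := by
        rw [Finset.sum_const, nsmul_eq_mul, mul_comm]

theorem inPart_triple (i j k : R) (hij : i ≠ j) (hjk : j ≠ k) (hik : i ≠ k)
    (G : R → C → Bool) (c : C) :
    inPart {i, j, k} G c = (if G i c = true then 1 else 0) + ((if G j c = true then 1 else 0)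
      + (if G k c = true then 1 else 0)) := by
  unfold inPart
  have h1 : (∑ r, if r ∈ ({i, j, k} : Finset R) ∧ G r c = true then 1 else 0)
      = ∑ r ∈ ({i, j, k} : Finset R), (if G r c = true then 1 else 0) := by
    rw [← Finset.sum_filter, ← Finset.sum_filter]
    congr 1
    ext r
    simp
  rw [h1, Finset.sum_insert, Finset.sum_insert, Finset.sum_singleton]
  · simpa using hjk
  · simp [hij, hik]

/-- Three-row lemma, claim A. -/
theorem g3_claimA (i j k : R) (hij : i ≠ j) (hjk : j ≠ k) (hik : i ≠ k)
    (f : (R → C → Bool) → ℝ) (L : ℝ)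
    (hL : ∀ A x y, SameMarg A (colSwap {i, j, k} x y A) →
      |f A - f (colSwap {i, j, k} x y A)| ≤ L)
    (G : R → C → Bool) (x y : C) (h : SameMarg G (colSwap {i, j, k} x y G)) :
    |(avgRel (RelP i j) f G + avgRel (RelP j k) f G + avgRel (RelP i k) f G)
      - (avgRel (RelP i j) f (colSwap {i, j, k} x y G)
          + avgRel (RelP j k) f (colSwap {i, j, k} x y G)
          + avgRel (RelP i k) f (colSwap {i, j, k} x y G))| ≤ 2 * L := by
  have hi : i ∈ ({i, j, k} : Finset R) := by simp
  have hj : j ∈ ({i, j, k} : Finset R) := by simp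
  have hk : k ∈ ({i, j, k} : Finset R) := by simp
  have b1 := avgRel_colSwap_le {i, j, k} i j hi hj f L hL G x y h
  have b2 := avgRel_colSwap_le {i, j, k} j k hj hk f L hL G x y h
  have b3 := avgRel_colSwap_le {i, j, k} i k hi hk f L hL G x y h
  have hrow : G i x = G i y ∨ G j x = G j y ∨ G k x = G k y := by
    have h1 := inPart_swap_of_sameMarg {i, j, k} x y G h x
    rw [Equiv.swap_apply_left, inPart_triple i j k hij hjk hik,
      inPart_triple i j k hij hjk hik] at h1
    by_contra hcon
    rw [not_or, not_or] at hcon
    obtain ⟨c1, c2, c3⟩ := hcon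
    cases hix : G i x <;> cases hiy : G i y <;> cases hjx : G j x <;> cases hjy : G j y <;>
      cases hkx : G k x <;> cases hky : G k y <;> simp_all
  have hmem : ∀ r, r ∈ ({i, j, k} : Finset R) → r = i ∨ r = j ∨ r = k := by
    intro r hr
    simpa using hr
  rw [abs_le] at b1 b2 b3
  rcases hrow with hr | hr | hr
  · have hrel : RelP j k G (colSwap {i, j, k} x y G) := by
      refine ⟨fun r hrj hrk => (colSwap_row_eq {i, j, k} x y G r (fun hrS => ?_)).symm, h⟩
      rcases hmem r hrS with e | e | e
      · rw [e]; exact hr
      · exact absurd e hrj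
      · exact absurd e hrk
    have e := avgRel_congr_of_relP j k f hrel
    rw [abs_le]
    constructor <;> linarith [b1.1, b1.2, b3.1, b3.2]
  · have hrel : RelP i k G (colSwap {i, j, k} x y G) := by
      refine ⟨fun r hri hrk => (colSwap_row_eq {i, j, k} x y G r (fun hrS => ?_)).symm, h⟩
      rcases hmem r hrS with e | e | e
      · exact absurd e hri
      · rw [e]; exact hr
      · exact absurd e hrk
    have e := avgRel_congr_of_relP i k f hrel
    rw [abs_le]
    constructor <;> linarith [b1.1, b1.2, b2.1, b2.2]
  · have hrel : RelP i j G (colSwap {i, j, k} x y G) := by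
      refine ⟨fun r hri hrj => (colSwap_row_eq {i, j, k} x y G r (fun hrS => ?_)).symm, h⟩
      rcases hmem r hrS with e | e | e
      · exact absurd e hri
      · exact absurd e hrj
      · rw [e]; exact hr
    have e := avgRel_congr_of_relP i j f hrel
    rw [abs_le]
    constructor <;> linarith [b2.1, b2.2, b3.1, b3.2]

end

end Vale.Agent.H27
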