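import Vale.Agent.H90.KTV.Abs

/-!
Transfer of averaging operators along an injection whose image is a union of classes:
extension by zero, averages, and the pairing of the complementary projections.
-/

namespace Vale.Agent.H27

open Finset
open Vale.Agent.H90
open scoped Classical

section transfer

variable {X Y : Type*} [Fintype X] [Fintype Y]

/-- extension by zero of a function along a map -/
noncomputable def ext0 (e : X → Y) (f : X → ℝ) : Y → ℝ :=
  fun y => if h : ∃ x, e x = y then f (Classical.choose h) else 0

theorem ext0_apply (e : X → Y) (he : Function.Injective e) (f : X → ℝ) (x : X) :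
    ext0 e f (e x) = f x := by
  unfold ext0
  have h : ∃ x', e x' = e x := ⟨x, rfl⟩
  rw [dif_pos h]
  exact congrArg f (he (Classical.choose_spec h))

theorem ext0_off (e : X → Y) (f : X → ℝ) (y : Y) (hy : ¬ ∃ x, e x = y) :
    ext0 e f y = 0 := by
  unfold ext0
  rw [dif_neg hy]

variable (r : X → X → Prop) (r' : Y → Y → Prop) [DecidableRel r] [DecidableRel r']

theorem avgRel_ext0 (e : X → Y) (he : Function.Injective e)
    (h1 : ∀ x x', r x x' → r' (e x) (e x'))
    (h2 : ∀ x y, r' (e x) y → ∃ x', e x' = y ∧ r x x')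
    (f : X → ℝ) (x : X) :
    avgRel r' (ext0 e f) (e x) = avgRel r f x := by
  classical
  unfold avgRel
  have hset : univ.filter (fun y => r' (e x) y)
      = (univ.filter (fun x' => r x x')).map ⟨e, he⟩ := by
    ext y
    simp only [mem_filter, mem_univ, true_and, mem_map, Function.Embedding.coeFn_mk]
    constructor
    · intro hy
      obtain ⟨x', hx', hr⟩ := h2 x y hy
      exact ⟨x', hr, hx'⟩
    · rintro ⟨x', hr, rfl⟩
      exact h1 x x' hr
  rw [hset, Finset.sum_map, Finset.card_map]
  congr 1
  refine Finset.sum_congr rfl (fun x' _ => ?_)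
  exact ext0_apply e he f x'

theorem avgRel_ext0_off (e : X → Y)
    (h3 : ∀ y x, r' y (e x) → ∃ x0, e x0 = y)
    (f : X → ℝ) (y : Y) (hy : ¬ ∃ x, e x = y) :
    avgRel r' (ext0 e f) y = 0 := by
  unfold avgRel
  have hz : ∑ y' ∈ univ.filter (fun y' => r' y y'), ext0 e f y' = 0 := by
    refine Finset.sum_eq_zero (fun y' hy' => ?_)
    simp only [mem_filter, mem_univ, true_and] at hy'
    apply ext0_off
    rintro ⟨x, rfl⟩
    exact hy (h3 y x hy')
  rw [hz, zero_div]

variable (s : X → X → Prop) (s' : Y → Y → Prop) [DecidableRel s] [DecidableRel s']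

/-- The pairing of two complementary averaging operators is preserved by the extension. -/
theorem dot_transfer (e : X → Y) (he : Function.Injective e)
    (h1 : ∀ x x', r x x' → r' (e x) (e x'))
    (h2 : ∀ x y, r' (e x) y → ∃ x', e x' = y ∧ r x x')
    (h3 : ∀ y x, r' y (e x) → ∃ x0, e x0 = y)
    (k1 : ∀ x x', s x x' → s' (e x) (e x'))
    (k2 : ∀ x y, s' (e x) y → ∃ x', e x' = y ∧ s x x')
    (f : X → ℝ) :
    dot (ext0 e f - avgRel r' (ext0 e f)) (ext0 e f - avgRel s' (ext0 e f))
      = dot (f - avgRel r f) (f - avgRel s f) := by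
  unfold dot
  symm
  apply Fintype.sum_of_injective e he
  · intro y hy
    have hy' : ¬ ∃ x, e x = y := by
      intro h
      exact hy (Set.mem_range.mpr h)
    simp only [Pi.sub_apply]
    rw [ext0_off e f y hy', avgRel_ext0_off r' e h3 f y hy']
    ring
  · intro x
    simp only [Pi.sub_apply]
    rw [ext0_apply e he f x, avgRel_ext0 r r' e he h1 h2 f x, avgRel_ext0 s s' e he k1 k2 f x]

end transfer

end Vale.Agent.H27
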