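import Vale.Agent.H27.KTV.TripleBridge
import Vale.Agent.H40.KTV.GBasic
import Vale.Agent.H90.KTV.G3

/-!
The vertex-triple inequality for simple graphs (all graphs on a finite vertex type, pair
fibres `RP`), obtained from the three-row inequality for Boolean matrices through the
coding of `TripleEnc`.
-/

namespace Vale.Agent.H27

open Finset SimpleGraph
open scoped Classical
open Vale.Agent.H90 (dot avgRel RelP Qrel)
open Vale.Agent.H40.KTV

variable {V : Type} [Fintype V]

theorem rp_iff_agreeOff (p q : V) (G H : SimpleGraph V) :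
    RP p q G H ↔ ((∀ v, G.degree v = H.degree v) ∧ AgreeOff p q G H) := by
  rw [rp_iff_relV]
  rfl

theorem enc_fwd (a b c : V) (hab : a ≠ b) (hac : a ≠ c) (hbc : b ≠ c)
    (p q : V) (hp : p = a ∨ p = b ∨ p = c) (hq : q = a ∨ q = b ∨ q = c) (hpq : p ≠ q)
    (G G' : SimpleGraph V) (h : RP p q G G') : RelP p q (enc a b c G) (enc a b c G') := by
  rw [rp_iff_agreeOff] at h
  exact relP_enc a b c hab hac hbc G G' h.1 p q hp hq hpq h.2

theorem enc_bwd (a b c : V) (hab : a ≠ b) (hac : a ≠ c) (hbc : b ≠ c)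
    (p q : V) (hp : p = a ∨ p = b ∨ p = c) (hq : q = a ∨ q = b ∨ q = c) (hpq : p ≠ q)
    (G : SimpleGraph V) (M : V → V → Bool) (h : RelP p q (enc a b c G) M) :
    ∃ G' : SimpleGraph V, enc a b c G' = M ∧ RP p q G G' := by
  obtain ⟨G', hdeg, henc, hag⟩ := exists_of_relP a b c hab hac hbc G p q hp hq hpq M h
  refine ⟨G', henc, ?_⟩
  rw [rp_iff_agreeOff]
  exact ⟨fun v => (hdeg v).symm, hag⟩

theorem enc_off (a b c : V) (hab : a ≠ b) (hac : a ≠ c) (hbc : b ≠ c)
    (p q : V) (hp : p = a ∨ p = b ∨ p = c) (hq : q = a ∨ q = b ∨ q = c) (hpq : p ≠ q)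
    (M : V → V → Bool) (G : SimpleGraph V) (h : RelP p q M (enc a b c G)) :
    ∃ G0 : SimpleGraph V, enc a b c G0 = M := by
  obtain ⟨G', _, henc, _⟩ := exists_of_relP a b c hab hac hbc G p q hp hq hpq M
    (Vale.Agent.H90.relP_symm h)
  exact ⟨G', henc⟩

/-- transfer of one product of two pair projections -/
theorem qp_transfer (a b c : V) (hab : a ≠ b) (hac : a ≠ c) (hbc : b ≠ c)
    (p q p' q' : V) (hp : p = a ∨ p = b ∨ p = c) (hq : q = a ∨ q = b ∨ q = c) (hpq : p ≠ q)
    (hp' : p' = a ∨ p' = b ∨ p' = c) (hq' : q' = a ∨ q' = b ∨ q' = c) (hpq' : p' ≠ q')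
    (f : SimpleGraph V → ℝ) :
    dot (Qrel (RelP p q) (ext0 (enc a b c) f)) (Qrel (RelP p' q') (ext0 (enc a b c) f))
      = dot (QP p q f) (QP p' q' f) := by
  unfold Qrel QP
  exact dot_transfer (RP p q) (RelP p q) (RP p' q') (RelP p' q') (enc a b c)
    (fun G G' h => enc_injective a b c hab hac hbc G G' h)
    (enc_fwd a b c hab hac hbc p q hp hq hpq)
    (enc_bwd a b c hab hac hbc p q hp hq hpq)
    (enc_off a b c hab hac hbc p q hp hq hpq)
    (enc_fwd a b c hab hac hbc p' q' hp' hq' hpq')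
    (enc_bwd a b c hab hac hbc p' q' hp' hq' hpq') f

/-- **Vertex-triple inequality** for the pair projections of simple graphs. -/
theorem tri (u v w : V) (huv : u ≠ v) (hvw : v ≠ w) (huw : u ≠ w) (f : SimpleGraph V → ℝ) :
    0 ≤ dot (QP u v f) (QP v w f) + dot (QP u v f) (QP u w f) + dot (QP v w f) (QP u w f) := by
  have hu : u = u ∨ u = v ∨ u = w := Or.inl rfl
  have hv : v = u ∨ v = v ∨ v = w := Or.inr (Or.inl rfl)
  have hw : w = u ∨ w = v ∨ w = w := Or.inr (Or.inr rfl)
  have key := Vale.Agent.H90.g3_cyclic u v w huv hvw huw (ext0 (enc u v w) f)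
  rw [qp_transfer u v w huv huw hvw u v v w hu hv huv hv hw hvw f,
    qp_transfer u v w huv huw hvw v w w u hv hw hvw hw hu (Ne.symm huw) f,
    qp_transfer u v w huv huw hvw w u u v hw hu (Ne.symm huw) hu hv huv f] at key
  rw [qp_comm w u f, Vale.Agent.H90.dot_comm (QP u w f) (QP u v f)] at key
  linarith

end Vale.Agent.H27
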