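import Vale.Agent.H27.KTV.TripleEnc
import Vale.Agent.H27.KTV.Transfer
import Vale.Agent.H90.KTV.Basic

/-!
Vertex triples of simple graphs versus three rows of Boolean matrices: the pair fibres of
a vertex triple correspond, through the coding of `TripleEnc`, to the row-pair fibres of a
three-row class, so the three-row inequality for Boolean matrices gives the triple
inequality for the realizations of a degree function.
-/

namespace Vale.Agent.H27

open Finset SimpleGraph
open Vale.Agent.H90
open Vale.Agent.H12.Switch (Omega nb degree_eq_nb cross_count degree_split)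
open scoped Classical

section bridge

variable {V : Type} [Fintype V] [DecidableEq V]

/-- A pair fibre of graphs is mapped into a row-pair fibre of matrices. -/
theorem relP_enc (a b c : V) (hab : a ≠ b) (hac : a ≠ c) (hbc : b ≠ c)
    (G G' : SimpleGraph V) (hdeg : ∀ v, G.degree v = G'.degree v) (p q : V)
    (hp : p = a ∨ p = b ∨ p = c) (hq : q = a ∨ q = b ∨ q = c) (hpq : p ≠ q)
    (h : AgreeOff p q G G') : RelP p q (enc a b c G) (enc a b c G') := by
  have hpq_adj : G.Adj p q ↔ G'.Adj p q := adj_iff_of_agreeOff G G' hdeg p q hpq h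
  -- rows other than p, q agree
  have hrows : ∀ k, k ≠ p → k ≠ q → enc a b c G k = enc a b c G' k := by
    intro k hkp hkq
    funext x
    by_cases hxa : x = a
    · subst hxa
      by_cases hk : k = x ∨ k = b ∨ k = c
      · rw [enc_third x b c hab hac hbc G k p q hk hp hq hkp hkq hpq,
          enc_third x b c hab hac hbc G' k p q hk hp hq hkp hkq hpq]
        simp only [hpq_adj]
      · rw [not_or, not_or] at hk
        rw [enc_ra x b c G k hk.1 hk.2.1 hk.2.2, enc_ra x b c G' k hk.1 hk.2.1 hk.2.2]
    by_cases hxb : x = b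
    · subst hxb
      rw [enc_colb a x c hab, enc_colb a x c hab]
    by_cases hxc : x = c
    · subst hxc
      rw [enc_colc a b x hac, enc_colc a b x hac]
    rw [enc_out a b c G k x hxa hxb hxc, enc_out a b c G' k x hxa hxb hxc]
    have hxp : x ≠ p := by
      rintro rfl
      rcases hp with h1 | h1 | h1
      · exact hxa h1
      · exact hxb h1
      · exact hxc h1
    have hxq : x ≠ q := by
      rintro rfl
      rcases hq with h1 | h1 | h1
      · exact hxa h1
      · exact hxb h1
      · exact hxc h1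
    simp only [h k x hkp hkq hxp hxq]
  obtain ⟨s, hs, hsp, hsq⟩ := exists_third a b c hab hac hbc p q hp hq hpq
  have hcola : colSum (enc a b c G) a = colSum (enc a b c G') a := by
    have e1 := degree_add_colSum a b c hab hac hbc G s hs
    have e2 := degree_add_colSum a b c hab hac hbc G' s hs
    have e3 : rowSum (enc a b c G) s = rowSum (enc a b c G') s := by
      unfold rowSum
      rw [hrows s hsp hsq]
    have e4 := hdeg s
    omega
  refine ⟨hrows, ?_, ?_⟩
  · intro i
    by_cases hi : i ≠ p ∧ i ≠ q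
    · unfold rowSum
      rw [hrows i hi.1 hi.2]
    · have hi' : i = a ∨ i = b ∨ i = c := by
        by_cases h1 : i = p
        · rw [h1]; exact hp
        · have h2 : i = q := by
            by_contra h2
            exact hi ⟨h1, h2⟩
          rw [h2]; exact hq
      have e1 := degree_add_colSum a b c hab hac hbc G i hi'
      have e2 := degree_add_colSum a b c hab hac hbc G' i hi'
      have e4 := hdeg i
      omega
  · intro x
    by_cases hxa : x = a
    · rw [hxa]; exact hcola
    by_cases hxb : x = b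
    · rw [hxb, colSum_enc_b a b c hab, colSum_enc_b a b c hab]
    by_cases hxc : x = c
    · rw [hxc, colSum_enc_c a b c hac, colSum_enc_c a b c hac]
    rw [colSum_enc_out a b c G x hxa hxb hxc, colSum_enc_out a b c G' x hxa hxb hxc]
    exact hdeg x

/-- Every matrix in the row-pair fibre of a coded graph is the code of a graph in the
pair fibre. -/
theorem exists_of_relP (a b c : V) (hab : a ≠ b) (hac : a ≠ c) (hbc : b ≠ c)
    (G : SimpleGraph V) (p q : V)
    (hp : p = a ∨ p = b ∨ p = c) (hq : q = a ∨ q = b ∨ q = c) (hpq : p ≠ q)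
    (M : V → V → Bool) (h : RelP p q (enc a b c G) M) :
    ∃ G' : SimpleGraph V, (∀ v, G'.degree v = G.degree v) ∧ enc a b c G' = M ∧
      AgreeOff p q G G' := by
  obtain ⟨hrows, hrs, hcs⟩ := h
  have hnot : ∀ k, k ≠ a → k ≠ b → k ≠ c → k ≠ p ∧ k ≠ q := by
    intro k hka hkb hkc
    constructor
    · rintro rfl
      rcases hp with h1 | h1 | h1
      · exact hka h1
      · exact hkb h1
      · exact hkc h1
    · rintro rfl
      rcases hq with h1 | h1 | h1
      · exact hka h1
      · exact hkb h1
      · exact hkc h1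
  have hcol0 : ∀ x, colSum M x = 0 → ∀ r, M r x = false := by
    intro x hx r
    unfold colSum at hx
    rw [Finset.card_eq_zero, Finset.filter_eq_empty_iff] at hx
    have := hx (Finset.mem_univ r)
    simpa using this
  have w1b : ∀ r, M r b = false :=
    hcol0 b (by rw [← hcs b, colSum_enc_b a b c hab])
  have w1c : ∀ r, M r c = false :=
    hcol0 c (by rw [← hcs c, colSum_enc_c a b c hac])
  have w2 : ∀ r, r ≠ a → r ≠ b → r ≠ c → M r a = false := by
    intro r hra hrb hrc
    have h1 := hnot r hra hrb hrc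
    rw [← hrows r h1.1 h1.2, enc_ra a b c G r hra hrb hrc]
  have w3 : ∀ u v, u ≠ a → u ≠ b → u ≠ c → v ≠ a → v ≠ b → v ≠ c → M u v = M v u := by
    intro u v hua hub huc hva hvb hvc
    have h1 := hnot u hua hub huc
    have h2 := hnot v hva hvb hvc
    rw [← hrows u h1.1 h1.2, ← hrows v h2.1 h2.2, enc_out a b c G u v hva hvb hvc,
      enc_out a b c G v u hua hub huc]
    simp only [G.adj_comm u v]
  have w4 : ∀ u, u ≠ a → u ≠ b → u ≠ c → M u u = false := by
    intro u hua hub huc
    have h1 := hnot u hua hub huc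
    rw [← hrows u h1.1 h1.2, enc_out a b c G u u hua hub huc]
    simp
  have henc : enc a b c (dec a b c M) = M := enc_dec a b c hab hac hbc M w1b w1c w2 w3 w4
  refine ⟨dec a b c M, ?_, henc, ?_⟩
  · intro v
    by_cases hv : v = a ∨ v = b ∨ v = c
    · have e1 := degree_add_colSum a b c hab hac hbc G v hv
      have e2 := degree_add_colSum a b c hab hac hbc (dec a b c M) v hv
      rw [henc] at e2
      have e3 := hrs v
      have e4 := hcs a
      omega
    · rw [not_or, not_or] at hv
      rw [← colSum_enc_out a b c (dec a b c M) v hv.1 hv.2.1 hv.2.2, henc, ← hcs v,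
        colSum_enc_out a b c G v hv.1 hv.2.1 hv.2.2]
  · intro u v hup huq hvp hvq
    -- entries of rows other than p, q
    have key : ∀ r x, r ≠ p → r ≠ q → x ≠ a → x ≠ b → x ≠ c →
        (G.Adj r x ↔ (dec a b c M).Adj r x) := by
      intro r x hrp hrq hxa hxb hxc
      have e1 := congrFun (hrows r hrp hrq) x
      rw [← henc, enc_out a b c G r x hxa hxb hxc,
        enc_out a b c (dec a b c M) r x hxa hxb hxc] at e1
      exact decide_eq_decide.mp e1
    by_cases hv : v = a ∨ v = b ∨ v = c
    · by_cases hu : u = a ∨ u = b ∨ u = c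
      · have huv : u = v := third_unique a b c p q u v hp hq hpq hu hv hup huq hvp hvq
        subst huv
        simp
      · rw [not_or, not_or] at hu
        rw [G.adj_comm, (dec a b c M).adj_comm]
        exact key v u hvp hvq hu.1 hu.2.1 hu.2.2
    · rw [not_or, not_or] at hv
      exact key u v hup huq hv.1 hv.2.1 hv.2.2

/-- the coding as a map on the realizations of a degree function -/
noncomputable def encΩ (d : V → ℕ) (a b c : V) : Omega d → V → V → Bool :=
  fun G => enc a b c G.1

theorem encΩ_injective (d : V → ℕ) (a b c : V) (hab : a ≠ b) (hac : a ≠ c) (hbc : b ≠ c) :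
    Function.Injective (encΩ d a b c) := by
  intro G G' h
  exact Subtype.ext (enc_injective a b c hab hac hbc G.1 G'.1 h)

theorem encΩ_fwd (d : V → ℕ) (a b c : V) (hab : a ≠ b) (hac : a ≠ c) (hbc : b ≠ c)
    (p q : V) (hp : p = a ∨ p = b ∨ p = c) (hq : q = a ∨ q = b ∨ q = c) (hpq : p ≠ q)
    (ρ : Omega d → Omega d → Prop) (hρ : ∀ G G', ρ G G' ↔ AgreeOff p q G.1 G'.1)
    (G G' : Omega d) (h : ρ G G') : RelP p q (encΩ d a b c G) (encΩ d a b c G') :=
  relP_enc a b c hab hac hbc G.1 G'.1 (fun v => by rw [G.2 v, G'.2 v]) p q hp hq hpq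
    ((hρ G G').mp h)

theorem encΩ_bwd (d : V → ℕ) (a b c : V) (hab : a ≠ b) (hac : a ≠ c) (hbc : b ≠ c)
    (p q : V) (hp : p = a ∨ p = b ∨ p = c) (hq : q = a ∨ q = b ∨ q = c) (hpq : p ≠ q)
    (ρ : Omega d → Omega d → Prop) (hρ : ∀ G G', ρ G G' ↔ AgreeOff p q G.1 G'.1)
    (G : Omega d) (M : V → V → Bool) (h : RelP p q (encΩ d a b c G) M) :
    ∃ G' : Omega d, encΩ d a b c G' = M ∧ ρ G G' := by
  obtain ⟨G', hdeg, henc, hag⟩ := exists_of_relP a b c hab hac hbc G.1 p q hp hq hpq M h
  refine ⟨⟨G', fun v => by rw [hdeg v, G.2 v]⟩, henc, ?_⟩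
  exact (hρ G _).mpr hag

theorem encΩ_off (d : V → ℕ) (a b c : V) (hab : a ≠ b) (hac : a ≠ c) (hbc : b ≠ c)
    (p q : V) (hp : p = a ∨ p = b ∨ p = c) (hq : q = a ∨ q = b ∨ q = c) (hpq : p ≠ q)
    (M : V → V → Bool) (G : Omega d) (h : RelP p q M (encΩ d a b c G)) :
    ∃ G0 : Omega d, encΩ d a b c G0 = M := by
  obtain ⟨G', hdeg, henc, _⟩ := exists_of_relP a b c hab hac hbc G.1 p q hp hq hpq M
    (Vale.Agent.H90.relP_symm h)
  exact ⟨⟨G', fun v => by rw [hdeg v, G.2 v]⟩, henc⟩

/-- **Vertex-triple inequality.** For three distinct vertices, the three-row inequality for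
Boolean matrices (hypothesis `hG3`, for the rows `a, b, c` of the matrices indexed by the
vertices) gives the same inequality for the three pair fibres of the realizations of a
degree function. -/
theorem triple_nonneg (d : V → ℕ) (a b c : V) (hab : a ≠ b) (hac : a ≠ c) (hbc : b ≠ c)
    (ρab ρbc ρac : Omega d → Omega d → Prop)
    [DecidableRel ρab] [DecidableRel ρbc] [DecidableRel ρac]
    (h1 : ∀ G G', ρab G G' ↔ AgreeOff a b G.1 G'.1)
    (h2 : ∀ G G', ρbc G G' ↔ AgreeOff b c G.1 G'.1)
    (h3 : ∀ G G', ρac G G' ↔ AgreeOff a c G.1 G'.1)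
    (hG3 : ∀ F : (V → V → Bool) → ℝ,
      0 ≤ dot (F - avgRel (RelP a b) F) (F - avgRel (RelP b c) F)
        + dot (F - avgRel (RelP b c) F) (F - avgRel (RelP a c) F)
        + dot (F - avgRel (RelP a c) F) (F - avgRel (RelP a b) F))
    (f : Omega d → ℝ) :
    0 ≤ dot (f - avgRel ρab f) (f - avgRel ρbc f)
      + dot (f - avgRel ρbc f) (f - avgRel ρac f)
      + dot (f - avgRel ρac f) (f - avgRel ρab f) := by
  have ha : a = a ∨ a = b ∨ a = c := Or.inl rfl
  have hb : b = a ∨ b = b ∨ b = c := Or.inr (Or.inl rfl)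
  have hc : c = a ∨ c = b ∨ c = c := Or.inr (Or.inr rfl)
  have he := encΩ_injective d a b c hab hac hbc
  have t1 := dot_transfer ρab (RelP a b) ρbc (RelP b c) (encΩ d a b c) he
    (encΩ_fwd d a b c hab hac hbc a b ha hb hab ρab h1)
    (encΩ_bwd d a b c hab hac hbc a b ha hb hab ρab h1)
    (encΩ_off d a b c hab hac hbc a b ha hb hab)
    (encΩ_fwd d a b c hab hac hbc b c hb hc hbc ρbc h2)
    (encΩ_bwd d a b c hab hac hbc b c hb hc hbc ρbc h2) f
  have t2 := dot_transfer ρbc (RelP b c) ρac (RelP a c) (encΩ d a b c) he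
    (encΩ_fwd d a b c hab hac hbc b c hb hc hbc ρbc h2)
    (encΩ_bwd d a b c hab hac hbc b c hb hc hbc ρbc h2)
    (encΩ_off d a b c hab hac hbc b c hb hc hbc)
    (encΩ_fwd d a b c hab hac hbc a c ha hc hac ρac h3)
    (encΩ_bwd d a b c hab hac hbc a c ha hc hac ρac h3) f
  have t3 := dot_transfer ρac (RelP a c) ρab (RelP a b) (encΩ d a b c) he
    (encΩ_fwd d a b c hab hac hbc a c ha hc hac ρac h3)
    (encΩ_bwd d a b c hab hac hbc a c ha hc hac ρac h3)
    (encΩ_off d a b c hab hac hbc a c ha hc hac)
    (encΩ_fwd d a b c hab hac hbc a b ha hb hab ρab h1)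
    (encΩ_bwd d a b c hab hac hbc a b ha hb hab ρab h1) f
  have key := hG3 (ext0 (encΩ d a b c) f)
  rw [t1, t2, t3] at key
  exact key

end bridge

end Vale.Agent.H27
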