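import Vale.Agent.H90.KTV.Abs
import Vale.Agent.H12.SplitBridge

/-!
Encoding of a simple graph, relative to a vertex triple `a, b, c`, as a Boolean
matrix with rows and columns indexed by the vertices: the columns outside the triple
carry the adjacency, column `a` is a virtual column whose entry in a row of the triple
records the absence of the opposite edge, columns `b`, `c` are empty.
-/

namespace Vale.Agent.H27

open Finset SimpleGraph
open Vale.Agent.H90
open Vale.Agent.H12.Switch (Omega nb degree_eq_nb cross_count degree_split)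
open scoped Classical

section defs

variable {V : Type} [DecidableEq V]

/-- agreement of two graphs on all vertex pairs avoiding `p` and `q` -/
def AgreeOff (p q : V) (G G' : SimpleGraph V) : Prop :=
  ∀ u v, u ≠ p → u ≠ q → v ≠ p → v ≠ q → (G.Adj u v ↔ G'.Adj u v)

/-- the matrix of a graph relative to the triple `a, b, c` -/
noncomputable def enc (a b c : V) (G : SimpleGraph V) : V → V → Bool := fun r x =>
  if x = a then
    (if r = a then !decide (G.Adj b c) else if r = b then !decide (G.Adj a c)
      else if r = c then !decide (G.Adj a b) else false)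
  else if x = b then false else if x = c then false else decide (G.Adj r x)

/-- the graph of a matrix relative to the triple `a, b, c` -/
noncomputable def dec (a b c : V) (M : V → V → Bool) : SimpleGraph V :=
  SimpleGraph.fromRel (fun u v =>
    (v ≠ a ∧ v ≠ b ∧ v ≠ c ∧ M u v = true) ∨ (u = a ∧ v = b ∧ M c a = false)
      ∨ (u = a ∧ v = c ∧ M b a = false) ∨ (u = b ∧ v = c ∧ M a a = false))

theorem enc_out (a b c : V) (G : SimpleGraph V) (r x : V) (hxa : x ≠ a) (hxb : x ≠ b)
    (hxc : x ≠ c) : enc a b c G r x = decide (G.Adj r x) := by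
  unfold enc
  rw [if_neg hxa, if_neg hxb, if_neg hxc]

theorem enc_colb (a b c : V) (hab : a ≠ b) (G : SimpleGraph V) (r : V) :
    enc a b c G r b = false := by
  unfold enc
  rw [if_neg (Ne.symm hab), if_pos rfl]

theorem enc_colc (a b c : V) (hac : a ≠ c) (G : SimpleGraph V) (r : V) :
    enc a b c G r c = false := by
  unfold enc
  rw [if_neg (Ne.symm hac)]
  by_cases h : c = b
  · rw [if_pos h]
  · rw [if_neg h, if_pos rfl]

theorem enc_aa (a b c : V) (G : SimpleGraph V) : enc a b c G a a = !decide (G.Adj b c) := by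
  unfold enc
  rw [if_pos rfl, if_pos rfl]

theorem enc_ba (a b c : V) (hab : a ≠ b) (G : SimpleGraph V) :
    enc a b c G b a = !decide (G.Adj a c) := by
  unfold enc
  rw [if_pos rfl, if_neg (Ne.symm hab), if_pos rfl]

theorem enc_ca (a b c : V) (hac : a ≠ c) (hbc : b ≠ c) (G : SimpleGraph V) :
    enc a b c G c a = !decide (G.Adj a b) := by
  unfold enc
  rw [if_pos rfl, if_neg (Ne.symm hac), if_neg (Ne.symm hbc), if_pos rfl]

theorem enc_ra (a b c : V) (G : SimpleGraph V) (r : V) (hra : r ≠ a) (hrb : r ≠ b)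
    (hrc : r ≠ c) : enc a b c G r a = false := by
  unfold enc
  rw [if_pos rfl, if_neg hra, if_neg hrb, if_neg hrc]

/-- The virtual entry of a row of the triple records the absence of the opposite edge. -/
theorem enc_third (a b c : V) (hab : a ≠ b) (hac : a ≠ c) (hbc : b ≠ c) (G : SimpleGraph V)
    (s p q : V) (hs : s = a ∨ s = b ∨ s = c) (hp : p = a ∨ p = b ∨ p = c)
    (hq : q = a ∨ q = b ∨ q = c) (hsp : s ≠ p) (hsq : s ≠ q) (hpq : p ≠ q) :
    enc a b c G s a = !decide (G.Adj p q) := by
  have hba : G.Adj b a ↔ G.Adj a b := G.adj_comm b a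
  have hca : G.Adj c a ↔ G.Adj a c := G.adj_comm c a
  have hcb : G.Adj c b ↔ G.Adj b c := G.adj_comm c b
  rcases hs with rfl | rfl | rfl
  · rw [enc_aa]
    rcases hp with rfl | rfl | rfl
    · exact absurd rfl hsp
    · rcases hq with rfl | rfl | rfl
      · exact absurd rfl hsq
      · exact absurd rfl hpq
      · rfl
    · rcases hq with rfl | rfl | rfl
      · exact absurd rfl hsq
      · simp only [hcb]
      · exact absurd rfl hpq
  · rw [enc_ba _ _ _ hab]
    rcases hp with rfl | rfl | rfl
    · rcases hq with rfl | rfl | rfl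
      · exact absurd rfl hpq
      · exact absurd rfl hsq
      · rfl
    · exact absurd rfl hsp
    · rcases hq with rfl | rfl | rfl
      · simp only [hca]
      · exact absurd rfl hsq
      · exact absurd rfl hpq
  · rw [enc_ca _ _ _ hac hbc]
    rcases hp with rfl | rfl | rfl
    · rcases hq with rfl | rfl | rfl
      · exact absurd rfl hpq
      · rfl
      · exact absurd rfl hsq
    · rcases hq with rfl | rfl | rfl
      · simp only [hba]
      · exact absurd rfl hpq
      · exact absurd rfl hsq
    · exact absurd rfl hsp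

end defs

section margins

variable {V : Type} [Fintype V] [DecidableEq V]

/-- splitting a sum over the vertices at three distinct points -/
theorem sum_split3 (a b c : V) (hab : a ≠ b) (hac : a ≠ c) (hbc : b ≠ c) (g : V → ℕ) :
    ∑ x, g x = g a + g b + g c + ∑ x, (if x ≠ a ∧ x ≠ b ∧ x ≠ c then g x else 0) := by
  have h1 : ∑ x, g x = ∑ x ∈ ({a, b, c} : Finset V), g x + ∑ x ∈ ({a, b, c} : Finset V)ᶜ, g x :=
    (Finset.sum_add_sum_compl _ _).symm
  have h2 : ∑ x ∈ ({a, b, c} : Finset V), g x = g a + g b + g c := by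
    rw [Finset.sum_insert, Finset.sum_insert, Finset.sum_singleton]
    · ring
    · simpa using hbc
    · simp [hab, hac]
  have h3 : ∑ x ∈ ({a, b, c} : Finset V)ᶜ, g x
      = ∑ x, (if x ≠ a ∧ x ≠ b ∧ x ≠ c then g x else 0) := by
    rw [← Finset.sum_filter]
    congr 1
    ext x
    simp only [mem_compl, mem_insert, mem_singleton, mem_filter, mem_univ, true_and, not_or]
  rw [h1, h2, h3]

/-- number of neighbours of `r` outside the triple -/
noncomputable def cntOut (a b c : V) (G : SimpleGraph V) (r : V) : ℕ :=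
  ∑ x, (if x ≠ a ∧ x ≠ b ∧ x ≠ c then (if G.Adj r x then 1 else 0) else 0)

theorem degree_split3 (a b c : V) (hab : a ≠ b) (hac : a ≠ c) (hbc : b ≠ c)
    (G : SimpleGraph V) (r : V) :
    G.degree r = (if G.Adj r a then 1 else 0) + (if G.Adj r b then 1 else 0)
      + (if G.Adj r c then 1 else 0) + cntOut a b c G r := by
  rw [degree_eq_nb]
  unfold nb cntOut
  rw [Finset.card_filter, sum_split3 a b c hab hac hbc]

theorem rowSum_enc (a b c : V) (hab : a ≠ b) (hac : a ≠ c) (hbc : b ≠ c)
    (G : SimpleGraph V) (r : V) :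
    rowSum (enc a b c G) r = (if enc a b c G r a = true then 1 else 0) + cntOut a b c G r := by
  unfold rowSum cntOut
  rw [Finset.card_filter, sum_split3 a b c hab hac hbc, enc_colb a b c hab, enc_colc a b c hac]
  simp only [Bool.false_eq_true, if_false, add_zero]
  congr 1
  refine Finset.sum_congr rfl (fun x _ => ?_)
  by_cases hx : x ≠ a ∧ x ≠ b ∧ x ≠ c
  · rw [if_pos hx, if_pos hx, enc_out a b c G r x hx.1 hx.2.1 hx.2.2]
    simp only [decide_eq_true_eq]
  · rw [if_neg hx, if_neg hx]

theorem colSum_enc_a (a b c : V) (hab : a ≠ b) (hac : a ≠ c) (hbc : b ≠ c)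
    (G : SimpleGraph V) :
    colSum (enc a b c G) a = (if G.Adj b c then 0 else 1) + (if G.Adj a c then 0 else 1)
      + (if G.Adj a b then 0 else 1) := by
  unfold colSum
  rw [Finset.card_filter, sum_split3 a b c hab hac hbc, enc_aa, enc_ba a b c hab,
    enc_ca a b c hac hbc]
  have hz : ∑ x, (if x ≠ a ∧ x ≠ b ∧ x ≠ c then (if enc a b c G x a = true then 1 else 0)
      else 0) = 0 := by
    refine Finset.sum_eq_zero (fun x _ => ?_)
    by_cases hx : x ≠ a ∧ x ≠ b ∧ x ≠ c
    · rw [if_pos hx, enc_ra a b c G x hx.1 hx.2.1 hx.2.2]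
      simp
    · rw [if_neg hx]
  rw [hz]
  by_cases h1 : G.Adj b c <;> by_cases h2 : G.Adj a c <;> by_cases h3 : G.Adj a b <;>
    simp [h1, h2, h3]

theorem colSum_enc_b (a b c : V) (hab : a ≠ b) (G : SimpleGraph V) :
    colSum (enc a b c G) b = 0 := by
  unfold colSum
  rw [Finset.card_eq_zero, Finset.filter_eq_empty_iff]
  intro r _
  rw [enc_colb a b c hab]
  simp

theorem colSum_enc_c (a b c : V) (hac : a ≠ c) (G : SimpleGraph V) :
    colSum (enc a b c G) c = 0 := by
  unfold colSum
  rw [Finset.card_eq_zero, Finset.filter_eq_empty_iff]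
  intro r _
  rw [enc_colc a b c hac]
  simp

/-- columns outside the triple have the degree as column sum -/
theorem colSum_enc_out (a b c : V) (G : SimpleGraph V) (x : V) (hxa : x ≠ a) (hxb : x ≠ b)
    (hxc : x ≠ c) : colSum (enc a b c G) x = G.degree x := by
  rw [degree_eq_nb]
  unfold colSum nb
  congr 1
  ext r
  simp only [mem_filter, mem_univ, true_and]
  rw [enc_out a b c G r x hxa hxb hxc, decide_eq_true_eq, G.adj_comm]

/-- degree of a vertex of the triple from the margins of the matrix -/
theorem degree_add_colSum (a b c : V) (hab : a ≠ b) (hac : a ≠ c) (hbc : b ≠ c)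
    (G : SimpleGraph V) (r : V) (hr : r = a ∨ r = b ∨ r = c) :
    G.degree r + colSum (enc a b c G) a = rowSum (enc a b c G) r + 2 := by
  rw [degree_split3 a b c hab hac hbc G r, colSum_enc_a a b c hab hac hbc,
    rowSum_enc a b c hab hac hbc]
  have hba : G.Adj b a ↔ G.Adj a b := G.adj_comm b a
  have hca : G.Adj c a ↔ G.Adj a c := G.adj_comm c a
  have hcb : G.Adj c b ↔ G.Adj b c := G.adj_comm c b
  rcases hr with rfl | rfl | rfl
  · rw [enc_aa]
    by_cases h1 : G.Adj b c <;> by_cases h2 : G.Adj r c <;> by_cases h3 : G.Adj r b <;>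
      simp [h1, h2, h3] <;> omega
  · rw [enc_ba a r c hab]
    by_cases h1 : G.Adj r c <;> by_cases h2 : G.Adj a c <;> by_cases h3 : G.Adj a r <;>
      simp [h1, h2, h3, hba] <;> omega
  · rw [enc_ca a b r hac hbc]
    by_cases h1 : G.Adj b r <;> by_cases h2 : G.Adj a r <;> by_cases h3 : G.Adj a b <;>
      simp [h1, h2, h3, hca, hcb] <;> omega

end margins

section coding

variable {V : Type}

theorem enc_injective [DecidableEq V] (a b c : V) (hab : a ≠ b) (hac : a ≠ c) (hbc : b ≠ c)
    (G G' : SimpleGraph V) (h : enc a b c G = enc a b c G') : G = G' := by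
  have hout : ∀ r x, x ≠ a → x ≠ b → x ≠ c → (G.Adj r x ↔ G'.Adj r x) := by
    intro r x hxa hxb hxc
    have h1 := congrFun (congrFun h r) x
    rw [enc_out a b c G r x hxa hxb hxc, enc_out a b c G' r x hxa hxb hxc] at h1
    exact decide_eq_decide.mp h1
  have e1 : G.Adj b c ↔ G'.Adj b c := by
    have h1 := congrFun (congrFun h a) a
    rw [enc_aa, enc_aa] at h1
    by_cases h2 : G.Adj b c <;> by_cases h3 : G'.Adj b c <;> simp_all
  have e2 : G.Adj a c ↔ G'.Adj a c := by
    have h1 := congrFun (congrFun h b) a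
    rw [enc_ba a b c hab, enc_ba a b c hab] at h1
    by_cases h2 : G.Adj a c <;> by_cases h3 : G'.Adj a c <;> simp_all
  have e3 : G.Adj a b ↔ G'.Adj a b := by
    have h1 := congrFun (congrFun h c) a
    rw [enc_ca a b c hac hbc, enc_ca a b c hac hbc] at h1
    by_cases h2 : G.Adj a b <;> by_cases h3 : G'.Adj a b <;> simp_all
  ext u v
  by_cases hv : v ≠ a ∧ v ≠ b ∧ v ≠ c
  · exact hout u v hv.1 hv.2.1 hv.2.2
  by_cases hu : u ≠ a ∧ u ≠ b ∧ u ≠ c
  · rw [G.adj_comm, G'.adj_comm]
    exact hout v u hu.1 hu.2.1 hu.2.2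
  have hv' : v = a ∨ v = b ∨ v = c := by tauto
  have hu' : u = a ∨ u = b ∨ u = c := by tauto
  rcases hu' with rfl | rfl | rfl <;> rcases hv' with rfl | rfl | rfl
  · simp
  · exact e3
  · exact e2
  · rw [G.adj_comm, G'.adj_comm]; exact e3
  · simp
  · exact e1
  · rw [G.adj_comm, G'.adj_comm]; exact e2
  · rw [G.adj_comm, G'.adj_comm]; exact e1
  · simp

theorem dec_adj_bc (a b c : V) (hab : a ≠ b) (hac : a ≠ c) (hbc : b ≠ c) (M : V → V → Bool) :
    (dec a b c M).Adj b c ↔ M a a = false := by
  unfold dec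
  rw [SimpleGraph.fromRel_adj]
  have h1 : b ≠ a := Ne.symm hab
  have h2 : c ≠ a := Ne.symm hac
  have h3 : c ≠ b := Ne.symm hbc
  constructor
  · rintro ⟨_, h | h⟩
    · rcases h with h | h | h | h
      · exact absurd rfl h.2.2.1
      · exact absurd h.1 h1
      · exact absurd h.1 h1
      · exact h.2.2
    · rcases h with h | h | h | h
      · exact absurd rfl h.2.1
      · exact absurd h.1 h2
      · exact absurd h.1 h2
      · exact absurd h.1 h3
  · intro h
    exact ⟨hbc, Or.inl (Or.inr (Or.inr (Or.inr ⟨rfl, rfl, h⟩)))⟩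

theorem dec_adj_ac (a b c : V) (hab : a ≠ b) (hac : a ≠ c) (hbc : b ≠ c) (M : V → V → Bool) :
    (dec a b c M).Adj a c ↔ M b a = false := by
  unfold dec
  rw [SimpleGraph.fromRel_adj]
  have h1 : b ≠ a := Ne.symm hab
  have h2 : c ≠ a := Ne.symm hac
  have h3 : c ≠ b := Ne.symm hbc
  constructor
  · rintro ⟨_, h | h⟩
    · rcases h with h | h | h | h
      · exact absurd rfl h.2.2.1
      · exact absurd h.2.1 h3
      · exact h.2.2
      · exact absurd h.1 hab
    · rcases h with h | h | h | h
      · exact absurd rfl h.1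
      · exact absurd h.1 h2
      · exact absurd h.1 h2
      · exact absurd h.1 h3
  · intro h
    exact ⟨hac, Or.inl (Or.inr (Or.inr (Or.inl ⟨rfl, rfl, h⟩)))⟩

theorem dec_adj_ab (a b c : V) (hab : a ≠ b) (hac : a ≠ c) (hbc : b ≠ c) (M : V → V → Bool) :
    (dec a b c M).Adj a b ↔ M c a = false := by
  unfold dec
  rw [SimpleGraph.fromRel_adj]
  have h1 : b ≠ a := Ne.symm hab
  have h2 : c ≠ a := Ne.symm hac
  have h3 : c ≠ b := Ne.symm hbc
  constructor
  · rintro ⟨_, h | h⟩
    · rcases h with h | h | h | h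
      · exact absurd rfl h.2.1
      · exact h.2.2
      · exact absurd h.2.1 hbc
      · exact absurd h.1 hab
    · rcases h with h | h | h | h
      · exact absurd rfl h.1
      · exact absurd h.1 h1
      · exact absurd h.1 h1
      · exact absurd h.2.1 hac
  · intro h
    exact ⟨hab, Or.inl (Or.inr (Or.inl ⟨rfl, rfl, h⟩))⟩

theorem dec_adj_out (a b c : V) (M : V → V → Bool) (r x : V) (hxa : x ≠ a) (hxb : x ≠ b)
    (hxc : x ≠ c) :
    (dec a b c M).Adj r x ↔
      r ≠ x ∧ (M r x = true ∨ (r ≠ a ∧ r ≠ b ∧ r ≠ c ∧ M x r = true)) := by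
  unfold dec
  rw [SimpleGraph.fromRel_adj]
  constructor
  · rintro ⟨hne, h | h⟩
    · rcases h with h | h | h | h
      · exact ⟨hne, Or.inl h.2.2.2⟩
      · exact absurd h.2.1 hxb
      · exact absurd h.2.1 hxc
      · exact absurd h.2.1 hxc
    · rcases h with h | h | h | h
      · exact ⟨hne, Or.inr h⟩
      · exact absurd h.1 hxa
      · exact absurd h.1 hxa
      · exact absurd h.1 hxb
  · rintro ⟨hne, h | h⟩
    · exact ⟨hne, Or.inl (Or.inl ⟨hxa, hxb, hxc, h⟩)⟩
    · exact ⟨hne, Or.inr (Or.inl h)⟩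

/-- On well-formed matrices the coding is inverse to the decoding. -/
theorem enc_dec [DecidableEq V] (a b c : V) (hab : a ≠ b) (hac : a ≠ c) (hbc : b ≠ c) (M : V → V → Bool)
    (w1b : ∀ r, M r b = false) (w1c : ∀ r, M r c = false)
    (w2 : ∀ r, r ≠ a → r ≠ b → r ≠ c → M r a = false)
    (w3 : ∀ u v, u ≠ a → u ≠ b → u ≠ c → v ≠ a → v ≠ b → v ≠ c → M u v = M v u)
    (w4 : ∀ u, u ≠ a → u ≠ b → u ≠ c → M u u = false) :
    enc a b c (dec a b c M) = M := by
  funext r x
  by_cases hxa : x = a
  · subst hxa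
    by_cases hra : r = x
    · subst hra
      rw [enc_aa]
      have := dec_adj_bc r b c hab hac hbc M
      by_cases h : M r r = false
      · rw [h]; simp [this.mpr h]
      · have h' : M r r = true := by simpa using h
        rw [h']
        have : ¬ (dec r b c M).Adj b c := fun hh => h (this.mp hh)
        simp [this]
    by_cases hrb : r = b
    · subst hrb
      rw [enc_ba x r c hab]
      have := dec_adj_ac x r c hab hac hbc M
      by_cases h : M r x = false
      · rw [h]; simp [this.mpr h]
      · have h' : M r x = true := by simpa using h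
        rw [h']
        have : ¬ (dec x r c M).Adj x c := fun hh => h (this.mp hh)
        simp [this]
    by_cases hrc : r = c
    · subst hrc
      rw [enc_ca x b r hac hbc]
      have := dec_adj_ab x b r hab hac hbc M
      by_cases h : M r x = false
      · rw [h]; simp [this.mpr h]
      · have h' : M r x = true := by simpa using h
        rw [h']
        have : ¬ (dec x b r M).Adj x b := fun hh => h (this.mp hh)
        simp [this]
    rw [enc_ra x b c _ r hra hrb hrc, w2 r hra hrb hrc]
  by_cases hxb : x = b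
  · subst hxb
    rw [enc_colb a x c hab, w1b]
  by_cases hxc : x = c
  · subst hxc
    rw [enc_colc a b x hac, w1c]
  rw [enc_out a b c _ r x hxa hxb hxc]
  have key := dec_adj_out a b c M r x hxa hxb hxc
  by_cases h : M r x = true
  · rw [h]
    have hne : r ≠ x := by
      rintro rfl
      rw [w4 r hxa hxb hxc] at h
      exact Bool.false_ne_true h
    simp [key.mpr ⟨hne, Or.inl h⟩]
  · have h' : M r x = false := by simpa using h
    rw [h']
    have : ¬ (dec a b c M).Adj r x := by
      intro hh
      rcases (key.mp hh).2 with h2 | ⟨h3, h4, h5, h6⟩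
      · exact h h2
      · rw [w3 x r hxa hxb hxc h3 h4 h5] at h6
        exact h h6
    simp [this]

end coding

section counting

variable {V : Type} [Fintype V]

/-- Inside a pair fibre the edge between the two vertices of the pair is determined. -/
theorem adj_iff_of_agreeOff (G G' : SimpleGraph V) (hdeg : ∀ v, G.degree v = G'.degree v)
    (p q : V) (hpq : p ≠ q) (h : AgreeOff p q G G') : G.Adj p q ↔ G'.Adj p q := by
  set A : Finset V := {p, q} with hA
  have hmem : ∀ u, u ∈ Aᶜ ↔ (u ≠ p ∧ u ≠ q) := by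
    intro u
    simp [hA]
  -- outside counts agree
  have h1 : ∀ u ∈ Aᶜ, nb G Aᶜ u = nb G' Aᶜ u := by
    intro u hu
    unfold nb
    congr 1
    apply Finset.filter_congr
    intro w hw
    have hu' := (hmem u).mp hu
    have hw' := (hmem w).mp hw
    exact h u w hu'.1 hu'.2 hw'.1 hw'.2
  have h2 : ∀ u ∈ Aᶜ, nb G A u = nb G' A u := by
    intro u hu
    have e1 := degree_split G A u
    have e2 := degree_split G' A u
    have e3 := h1 u hu
    have e4 := hdeg u
    omega
  have h3 : ∑ u ∈ Aᶜ, nb G A u = ∑ u ∈ Aᶜ, nb G' A u := Finset.sum_congr rfl h2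
  have h4 : ∑ v ∈ A, nb G Aᶜ v = ∑ v ∈ A, nb G' Aᶜ v := by
    rw [cross_count G A, cross_count G' A, h3]
  have hsum : ∀ g : V → ℕ, ∑ v ∈ A, g v = g p + g q := by
    intro g
    rw [hA, Finset.sum_insert (by simpa using hpq), Finset.sum_singleton]
  rw [hsum, hsum] at h4
  have cnt : ∀ K : SimpleGraph V, nb K A p + nb K A q = 2 * (if K.Adj p q then 1 else 0) := by
    intro K
    have c1 : nb K A p = if K.Adj p q then 1 else 0 := by
      unfold nb
      rw [Finset.card_filter, hsum]
      simp
    have c2 : nb K A q = if K.Adj p q then 1 else 0 := by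
      unfold nb
      rw [Finset.card_filter, hsum]
      simp [K.adj_comm q p]
    rw [c1, c2]; ring
  have d1 := degree_split G A p
  have d2 := degree_split G A q
  have d3 := degree_split G' A p
  have d4 := degree_split G' A q
  have d5 := hdeg p
  have d6 := hdeg q
  have c1 := cnt G
  have c2 := cnt G'
  by_cases g1 : G.Adj p q <;> by_cases g2 : G'.Adj p q
  · exact ⟨fun _ => g2, fun _ => g1⟩
  · rw [if_pos g1] at c1; rw [if_neg g2] at c2; omega
  · rw [if_neg g1] at c1; rw [if_pos g2] at c2; omega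
  · exact ⟨fun hh => absurd hh g1, fun hh => absurd hh g2⟩

end counting

section fibres

variable {V : Type}

theorem exists_third (a b c : V) (hab : a ≠ b) (hac : a ≠ c) (hbc : b ≠ c) (p q : V)
    (hp : p = a ∨ p = b ∨ p = c) (hq : q = a ∨ q = b ∨ q = c) (hpq : p ≠ q) :
    ∃ s, (s = a ∨ s = b ∨ s = c) ∧ s ≠ p ∧ s ≠ q := by
  rcases hp with rfl | rfl | rfl <;> rcases hq with rfl | rfl | rfl
  · exact absurd rfl hpq
  · exact ⟨c, Or.inr (Or.inr rfl), Ne.symm hac, Ne.symm hbc⟩
  · exact ⟨b, Or.inr (Or.inl rfl), Ne.symm hab, hbc⟩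
  · exact ⟨c, Or.inr (Or.inr rfl), Ne.symm hbc, Ne.symm hac⟩
  · exact absurd rfl hpq
  · exact ⟨a, Or.inl rfl, hab, hac⟩
  · exact ⟨b, Or.inr (Or.inl rfl), hbc, Ne.symm hab⟩
  · exact ⟨a, Or.inl rfl, hac, hab⟩
  · exact absurd rfl hpq

theorem third_unique (a b c : V) (p q u v : V)
    (hp : p = a ∨ p = b ∨ p = c) (hq : q = a ∨ q = b ∨ q = c) (hpq : p ≠ q)
    (hu : u = a ∨ u = b ∨ u = c) (hv : v = a ∨ v = b ∨ v = c)
    (hup : u ≠ p) (huq : u ≠ q) (hvp : v ≠ p) (hvq : v ≠ q) : u = v := by
  rcases hp with rfl | rfl | rfl <;> rcases hq with rfl | rfl | rfl <;>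
    rcases hu with rfl | rfl | rfl <;> rcases hv with rfl | rfl | rfl <;>
    first
      | rfl
      | exact absurd rfl hpq
      | exact absurd rfl hup
      | exact absurd rfl huq
      | exact absurd rfl hvp
      | exact absurd rfl hvq

end fibres

end Vale.Agent.H27
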